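import Vale.Agent.P252.Main

open scoped ContDiff Matrix

theorem Vale.Agent.Results.P252.Entire.result (n : ℕ) (hn : 10 ≤ n) :
    ∃ u : (Fin n → ℝ) → ℝ, ContDiff ℝ ∞ u ∧ (∀ x, (Vale.Agent.P252.hess u x).PosDef) ∧
      Vale.Agent.P252.SolvesAM u ∧
      ¬ ∃ (A : Matrix (Fin n) (Fin n) ℝ) (b : Fin n → ℝ) (c : ℝ),
        ∀ x, u x = 1 / 2 * (x ⬝ᵥ (A *ᵥ x)) + b ⬝ᵥ x + c :=
  Vale.Agent.P252.exists_entire n hn
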